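import Mathlib
import Crest.Prelude.Def_ModularData

/-! Basic facts on `LineCalculus`: contractivity, the unitary group, strong continuity and
Fourier representation of functions of `D`. -/

set_option autoImplicit false

open MeasureTheory Filter Topology
open scoped InnerProductSpace BoundedContinuousFunction
open Crest.OpAlg Crest.OpAlg.LineCalculus

namespace Crest.Agent.R84

variable {H : Type*} [NormedAddCommGroup H] [InnerProductSpace ℂ H] [CompleteSpace H]

lemma norm_app_le (D : LineCalculus H) (f : ℝ →ᵇ ℂ) : ‖D.apply f‖ ≤ ‖f‖ :=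
  NonUnitalStarAlgHom.norm_apply_le D.apply f

lemma norm_app_apply_le (D : LineCalculus H) (f : ℝ →ᵇ ℂ) (x : H) :
    ‖D.apply f x‖ ≤ ‖f‖ * ‖x‖ :=
  ((D.apply f).le_opNorm x).trans (mul_le_mul_of_nonneg_right (norm_app_le D f) (norm_nonneg _))

lemma app_app (D : LineCalculus H) (f g : ℝ →ᵇ ℂ) (x : H) :
    D.apply f (D.apply g x) = D.apply (f * g) x := by
  rw [map_mul]; rfl

lemma character_apply (t u : ℝ) :
    character t u = Complex.exp (Complex.I * ((t * u : ℝ) : ℂ)) := rfl

lemma character_add (s t : ℝ) : character (s + t) = character s * character t := by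
  ext u
  simp only [BoundedContinuousFunction.mul_apply, character_apply, ← Complex.exp_add]
  congr 1; push_cast; ring

lemma character_zero : character 0 = 1 := by
  ext u; simp [character_apply]

lemma star_character (t : ℝ) : star (character t) = character (-t) := by
  ext u
  simp only [BoundedContinuousFunction.star_apply, character_apply, Complex.star_def,
    ← Complex.exp_conj, map_mul, Complex.conj_I, Complex.conj_ofReal]
  congr 1; push_cast; ring

lemma norm_character_apply (t u : ℝ) : ‖character t u‖ = 1 := by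
  rw [character_apply, Complex.norm_exp]; simp

lemma norm_character_le (t : ℝ) : ‖character t‖ ≤ 1 :=
  (BoundedContinuousFunction.norm_le zero_le_one).2 fun u => (norm_character_apply t u).le

lemma wave_add (D : LineCalculus H) (s t : ℝ) : D.wave (s + t) = D.wave s * D.wave t := by
  simp only [wave, character_add, map_mul]

lemma wave_zero (D : LineCalculus H) : D.wave 0 = 1 := by
  simp only [wave, character_zero, map_one]

lemma star_wave (D : LineCalculus H) (t : ℝ) : star (D.wave t) = D.wave (-t) := by
  simp only [wave, ← map_star, star_character]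

lemma wave_mul_neg (D : LineCalculus H) (t : ℝ) : D.wave t * D.wave (-t) = 1 := by
  rw [← wave_add, add_neg_cancel, wave_zero]

lemma wave_neg_mul (D : LineCalculus H) (t : ℝ) : D.wave (-t) * D.wave t = 1 := by
  rw [← wave_add, neg_add_cancel, wave_zero]

lemma wave_wave_neg (D : LineCalculus H) (t : ℝ) (x : H) : D.wave t (D.wave (-t) x) = x := by
  change (D.wave t * D.wave (-t)) x = x
  rw [wave_mul_neg]; rfl

lemma wave_neg_wave (D : LineCalculus H) (t : ℝ) (x : H) : D.wave (-t) (D.wave t x) = x := by
  change (D.wave (-t) * D.wave t) x = x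
  rw [wave_neg_mul]; rfl

lemma wave_wave (D : LineCalculus H) (s t : ℝ) (x : H) :
    D.wave s (D.wave t x) = D.wave (s + t) x := by
  rw [wave_add]; rfl

lemma norm_wave_le (D : LineCalculus H) (t : ℝ) : ‖D.wave t‖ ≤ 1 :=
  (norm_app_le D _).trans (norm_character_le t)

lemma norm_wave_apply_le (D : LineCalculus H) (t : ℝ) (x : H) : ‖D.wave t x‖ ≤ ‖x‖ := by
  calc ‖D.wave t x‖ ≤ ‖D.wave t‖ * ‖x‖ := (D.wave t).le_opNorm x
    _ ≤ 1 * ‖x‖ := by gcongr; exact norm_wave_le D t
    _ = ‖x‖ := one_mul _

lemma norm_wave_apply (D : LineCalculus H) (t : ℝ) (x : H) : ‖D.wave t x‖ = ‖x‖ := by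
  refine le_antisymm (norm_wave_apply_le D t x) ?_
  conv_lhs => rw [← wave_neg_wave D t x]
  exact norm_wave_apply_le D _ _

lemma inner_wave_left (D : LineCalculus H) (t : ℝ) (x y : H) :
    ⟪D.wave t x, y⟫_ℂ = ⟪x, D.wave (-t) y⟫_ℂ := by
  rw [← star_wave, ContinuousLinearMap.star_eq_adjoint, ContinuousLinearMap.adjoint_inner_right]

lemma inner_wave_right (D : LineCalculus H) (t : ℝ) (x y : H) :
    ⟪x, D.wave t y⟫_ℂ = ⟪D.wave (-t) x, y⟫_ℂ := by
  rw [inner_wave_left, neg_neg]

/-- A closed property of vectors holding on all `χ(D) z` with `χ` of compact support holds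
everywhere. -/
lemma window_induction (D : LineCalculus H) {P : H → Prop} (hP : IsClosed {x | P x})
    (x : H) (h : ∀ χ : ℝ →ᵇ ℂ, HasCompactSupport (χ : ℝ → ℂ) → P (D.apply χ x)) : P x := by
  have : x ∈ closure {x | P x} := by
    rw [Metric.mem_closure_iff]
    intro ε hε
    obtain ⟨χ, hχ, hx⟩ := D.window x ε hε
    exact ⟨D.apply χ x, h χ hχ, by rwa [dist_comm, dist_eq_norm]⟩
  rwa [hP.closure_eq] at this

lemma app_eq_zero_of_window (D : LineCalculus H) (f : ℝ →ᵇ ℂ) (x : H)
    (h : ∀ χ : ℝ →ᵇ ℂ, HasCompactSupport (χ : ℝ → ℂ) → D.apply (f * χ) x = 0) :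
    D.apply f x = 0 := by
  refine window_induction D (P := fun z => D.apply f z = 0) ?_ x ?_
  · exact isClosed_eq (D.apply f).continuous continuous_const
  · intro χ hχ
    simp only [app_app]
    exact h χ hχ

lemma lipschitz_character_mul (χ : ℝ →ᵇ ℂ) (hχ : HasCompactSupport (χ : ℝ → ℂ)) :
    ∃ C : ℝ, ∀ s t : ℝ, dist (character s * χ) (character t * χ) ≤ C * dist s t := by
  obtain ⟨M, hM⟩ := hχ.isCompact.isBounded.subset_closedBall 0
  refine ⟨|M| * ‖χ‖, fun s t => ?_⟩
  rw [BoundedContinuousFunction.dist_le (by positivity)]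
  intro u
  by_cases hu : χ u = 0
  · simp only [BoundedContinuousFunction.mul_apply, hu, mul_zero, dist_self]; positivity
  · have hu' : |u| ≤ |M| := by
      have := hM (subset_tsupport _ (Function.mem_support.2 hu))
      rw [mem_closedBall_zero_iff, Real.norm_eq_abs] at this
      exact this.trans (le_abs_self M)
    rw [dist_eq_norm, BoundedContinuousFunction.mul_apply, BoundedContinuousFunction.mul_apply,
      ← sub_mul, norm_mul]
    have h1 : ‖character s u - character t u‖ ≤ |M| * dist s t := by
      have e : character s u - character t u =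
          character t u * (Complex.exp (Complex.I * (((s - t) * u : ℝ) : ℂ)) - 1) := by
        rw [mul_sub, mul_one, character_apply, character_apply, ← Complex.exp_add]
        congr 2; push_cast; ring
      rw [e, norm_mul, norm_character_apply, one_mul]
      refine (Real.norm_exp_I_mul_ofReal_sub_one_le).trans ?_
      rw [Real.norm_eq_abs, abs_mul, Real.dist_eq, mul_comm]
      gcongr
    calc ‖character s u - character t u‖ * ‖χ u‖ ≤ (|M| * dist s t) * ‖χ‖ := by
          gcongr; exact χ.norm_coe_le_norm u
      _ = |M| * ‖χ‖ * dist s t := by ring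

lemma continuous_character_mul (χ : ℝ →ᵇ ℂ) (hχ : HasCompactSupport (χ : ℝ → ℂ)) :
    Continuous fun t : ℝ => character t * χ := by
  obtain ⟨C, hC⟩ := lipschitz_character_mul χ hχ
  exact (LipschitzWith.of_dist_le' hC).continuous

/-- `f ↦ f(D) x` as a continuous linear map. -/
noncomputable def appAt (D : LineCalculus H) (x : H) : (ℝ →ᵇ ℂ) →L[ℂ] H :=
  LinearMap.mkContinuous
    { toFun := fun f => D.apply f x
      map_add' := fun f g => by simp
      map_smul' := fun c f => by simp } ‖x‖
    (fun f => by simpa [mul_comm] using norm_app_apply_le D f x)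

@[simp] lemma appAt_apply (D : LineCalculus H) (x : H) (f : ℝ →ᵇ ℂ) :
    appAt D x f = D.apply f x := rfl

lemma continuous_wave_apply (D : LineCalculus H) (x : H) :
    Continuous fun t : ℝ => D.wave t x := by
  refine window_induction D (P := fun z => Continuous fun t : ℝ => D.wave t z) ?_ x ?_
  · refine isClosed_of_closure_subset fun z hz => ?_
    refine continuous_of_uniform_approx_of_continuous fun u hu => ?_
    obtain ⟨ε, hε, hεu⟩ := Metric.mem_uniformity_dist.1 hu
    obtain ⟨w, hw, hzw⟩ := Metric.mem_closure_iff.1 hz ε hε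
    refine ⟨fun t => D.wave t w, hw, fun t => hεu ?_⟩
    rw [dist_eq_norm, ← map_sub, norm_wave_apply, ← dist_eq_norm]
    exact hzw
  · intro χ hχ
    have := (appAt D x).continuous.comp (continuous_character_mul χ hχ)
    refine this.congr fun t => ?_
    simp [wave]

/-- Joint continuity of `(t, x) ↦ exp(itD) x` along continuous curves. -/
lemma continuous_wave_comp (D : LineCalculus H) {X : Type*} [TopologicalSpace X]
    {τ : X → ℝ} {v : X → H} (hτ : Continuous τ) (hv : Continuous v) :
    Continuous fun p => D.wave (τ p) (v p) := by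
  rw [continuous_iff_continuousAt]
  intro p
  have h1 : ContinuousAt (fun q => D.wave (τ q) (v p)) p :=
    ((continuous_wave_apply D (v p)).comp hτ).continuousAt
  have h2 : Tendsto (fun q => D.wave (τ q) (v q - v p)) (𝓝 p) (𝓝 0) := by
    rw [tendsto_zero_iff_norm_tendsto_zero]
    simp only [norm_wave_apply]
    rw [← tendsto_zero_iff_norm_tendsto_zero]
    have := (hv.continuousAt (x := p)).tendsto.sub_const (v p)
    simpa using this
  have := h1.tendsto.add h2
  simp only [add_zero, ← map_add, add_sub_cancel] at this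
  exact this

/-- The bounded continuous function `u ↦ ∫ k w exp(i τ(w) u) dμ(w)`. -/
noncomputable def fourierBCF (μ : Measure ℝ) (k : ℝ → ℂ) (τ : ℝ → ℝ) (hk : Integrable k μ)
    (hτ : Continuous τ) : ℝ →ᵇ ℂ :=
  BoundedContinuousFunction.ofNormedAddCommGroup
    (fun u => ∫ w, k w * character (τ w) u ∂μ)
    (by
      refine continuous_of_dominated (bound := fun w => ‖k w‖) ?_ ?_ hk.norm ?_
      · intro u
        refine hk.aestronglyMeasurable.mul (Continuous.aestronglyMeasurable ?_)
        simp only [character_apply]; fun_prop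
      · intro u
        filter_upwards with w
        rw [norm_mul, norm_character_apply, mul_one]
      · filter_upwards with w
        exact continuous_const.mul (character (τ w)).continuous)
    (∫ w, ‖k w‖ ∂μ)
    (fun u => by
      refine (norm_integral_le_integral_norm _).trans (le_of_eq ?_)
      simp only [norm_mul, norm_character_apply, mul_one])

lemma fourierBCF_apply (μ : Measure ℝ) (k : ℝ → ℂ) (τ : ℝ → ℝ) (hk : Integrable k μ)
    (hτ : Continuous τ) (u : ℝ) :
    fourierBCF μ k τ hk hτ u = ∫ w, k w * character (τ w) u ∂μ := rfl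

lemma norm_fourierBCF_le (μ : Measure ℝ) (k : ℝ → ℂ) (τ : ℝ → ℝ) (hk : Integrable k μ)
    (hτ : Continuous τ) : ‖fourierBCF μ k τ hk hτ‖ ≤ ∫ w, ‖k w‖ ∂μ :=
  BoundedContinuousFunction.norm_ofNormedAddCommGroup_le _
    (integral_nonneg fun _ => norm_nonneg _) _

lemma integrable_smul_of_bdd {E : Type*} [NormedAddCommGroup E] [NormedSpace ℂ E]
    {μ : Measure ℝ} {k : ℝ → ℂ} (hk : Integrable k μ) {v : ℝ → E} (hv : Continuous v)
    {C : ℝ} (hC : ∀ w, ‖v w‖ ≤ C) : Integrable (fun w => k w • v w) μ := by
  refine Integrable.mono' (hk.norm.mul_const C)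
    (hk.aestronglyMeasurable.smul hv.aestronglyMeasurable) ?_
  filter_upwards with w
  rw [norm_smul]; gcongr; exact hC w

lemma app_fourierBCF (D : LineCalculus H) (μ : Measure ℝ) (k : ℝ → ℂ) (τ : ℝ → ℝ)
    (hk : Integrable k μ) (hτ : Continuous τ) (x : H) :
    D.apply (fourierBCF μ k τ hk hτ) x = ∫ w, k w • D.wave (τ w) x ∂μ := by
  have hint : ∀ z : H, Integrable (fun w => k w • D.wave (τ w) z) μ := fun z =>
    integrable_smul_of_bdd hk ((continuous_wave_apply D z).comp hτ)
      (fun w => norm_wave_apply_le D _ z)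
  refine window_induction D
    (P := fun z => D.apply (fourierBCF μ k τ hk hτ) z = ∫ w, k w • D.wave (τ w) z ∂μ) ?_ x ?_
  · refine isClosed_eq (D.apply _).continuous ?_
    refine LipschitzWith.continuous (K := Real.toNNReal (∫ w, ‖k w‖ ∂μ))
      (LipschitzWith.of_dist_le' fun y z => ?_)
    rw [dist_eq_norm, ← integral_sub (hint y) (hint z), dist_eq_norm, ← integral_mul_const]
    refine norm_integral_le_of_norm_le (hk.norm.mul_const _) ?_
    filter_upwards with w
    rw [← smul_sub, ← map_sub, norm_smul, norm_wave_apply]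
  · intro χ hχ
    have hc : Continuous fun w => character (τ w) * χ := (continuous_character_mul χ hχ).comp hτ
    have hI : Integrable (fun w => k w • (character (τ w) * χ)) μ :=
      integrable_smul_of_bdd hk hc (C := ‖χ‖) fun w => by
        refine (norm_mul_le _ _).trans ?_
        calc ‖character (τ w)‖ * ‖χ‖ ≤ 1 * ‖χ‖ := by gcongr; exact norm_character_le _
          _ = ‖χ‖ := one_mul _
    have key : fourierBCF μ k τ hk hτ * χ = ∫ w, k w • (character (τ w) * χ) ∂μ := by
      ext u
      have := ((BoundedContinuousFunction.evalCLM ℂ u :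
        (ℝ →ᵇ ℂ) →L[ℂ] ℂ).integral_comp_comm hI).symm
      simp only [BoundedContinuousFunction.evalCLM_apply] at this
      rw [this, BoundedContinuousFunction.mul_apply, fourierBCF_apply, ← integral_mul_const]
      congr 1; ext w; simp [mul_assoc]
    simp only [app_app, key]
    have := ((appAt D x).integral_comp_comm hI).symm
    simp only [appAt_apply] at this
    rw [this]
    congr 1; ext w
    simp [wave]

end Crest.Agent.R84
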