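import Crest.Agent.R84.Random

/-! Truncation, the smoothing kernel and the recovery of one bounded element. -/

set_option autoImplicit false

open MeasureTheory Filter Topology
open scoped InnerProductSpace BoundedContinuousFunction FourierTransform
open Crest.OpAlg Crest.OpAlg.LineCalculus

namespace Crest.Agent.R84

variable {H : Type*} [NormedAddCommGroup H] [InnerProductSpace ℂ H] [CompleteSpace H]

/-- Truncation `v = X (1 + θ² X⋆X)⁻¹`. -/
lemma exists_trunc (M : VonNeumannAlgebra H) {X : H →L[ℂ] H} (hX : X ∈ M) {θ : ℝ} (hθ : 0 < θ) :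
    ∃ v ∈ M, ‖v‖ ≤ θ⁻¹ ∧ ∀ x, ‖X x - v x‖ ≤ θ * ‖(star X * X) x‖ := by
  set u : H →L[ℂ] H := 1 + ((θ ^ 2 : ℝ) : ℂ) • (star X * X) with hu
  have hinner : ∀ z, ⟪u z, z⟫_ℂ = ((‖z‖ ^ 2 + θ ^ 2 * ‖X z‖ ^ 2 : ℝ) : ℂ) := by
    intro z
    change ⟪z + ((θ ^ 2 : ℝ) : ℂ) • (star X * X) z, z⟫_ℂ = _
    rw [inner_add_left, inner_smul_left, inner_star_mul_self, inner_self_ofReal,
      Complex.conj_ofReal]
    push_cast; ring
  have hunit : IsUnit u := by
    refine ContinuousLinearMap.isUnit_of_forall_le_norm_inner_map u (c := 1) one_pos fun z => ?_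
    rw [hinner, Complex.norm_real, Real.norm_eq_abs, abs_of_nonneg (by positivity)]
    have : 0 ≤ θ ^ 2 * ‖X z‖ ^ 2 := by positivity
    simpa using this
  obtain ⟨w, hw⟩ := hunit
  have huM : u ∈ M := add_mem (one_mem M) (smul_mem_M M _ (mul_mem (star_mem hX) hX))
  have hwM : ((w⁻¹ : (H →L[ℂ] H)ˣ) : H →L[ℂ] H) ∈ M := by
    refine mem_of_commute M fun c hc => ?_
    have h1 : Commute c (w : H →L[ℂ] H) := by rw [hw]; exact commute_of_mem M huM hc
    exact h1.units_inv_right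
  have hnorm : ‖X * ((w⁻¹ : (H →L[ℂ] H)ˣ) : H →L[ℂ] H)‖ ≤ θ⁻¹ := by
    refine ContinuousLinearMap.opNorm_le_bound _ (by positivity) fun z => ?_
    set z' := ((w⁻¹ : (H →L[ℂ] H)ˣ) : H →L[ℂ] H) z with hz'
    have hz : u z' = z := by
      rw [hz', ← hw]
      change ((w : H →L[ℂ] H) * ((w⁻¹ : (H →L[ℂ] H)ˣ) : H →L[ℂ] H)) z = z
      rw [Units.mul_inv]; rfl
    change ‖X z'‖ ≤ θ⁻¹ * ‖z‖
    have h1 : ‖z'‖ ^ 2 + θ ^ 2 * ‖X z'‖ ^ 2 ≤ ‖z‖ * ‖z'‖ := by
      have := norm_inner_le_norm (𝕜 := ℂ) (u z') z'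
      rwa [hinner, Complex.norm_real, Real.norm_eq_abs, abs_of_nonneg (by positivity), hz] at this
    rw [le_inv_mul_iff₀ hθ]
    refine abs_le_of_sq_le_sq' ?_ (norm_nonneg _) |>.2
    nlinarith [sq_nonneg (‖z‖ - ‖z'‖), norm_nonneg z, norm_nonneg z', sq_nonneg ‖z‖,
      sq_nonneg ‖z'‖]
  refine ⟨X * ((w⁻¹ : (H →L[ℂ] H)ˣ) : H →L[ℂ] H), mul_mem hX hwM, hnorm, fun x => ?_⟩
  set v := X * ((w⁻¹ : (H →L[ℂ] H)ˣ) : H →L[ℂ] H) with hv
  have h1 : v * u = X := by rw [hv, ← hw, mul_assoc, Units.inv_mul, mul_one]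
  have h2 : X x - v x = ((θ ^ 2 : ℝ) : ℂ) • v ((star X * X) x) := by
    conv_lhs => rw [← h1]
    change v (x + ((θ ^ 2 : ℝ) : ℂ) • (star X * X) x) - v x = _
    rw [map_add, map_smul, add_sub_cancel_left]
  rw [h2, norm_smul, Complex.norm_real, Real.norm_eq_abs, abs_of_nonneg (by positivity)]
  calc θ ^ 2 * ‖v ((star X * X) x)‖ ≤ θ ^ 2 * (θ⁻¹ * ‖(star X * X) x‖) := by
        gcongr
        exact (v.le_opNorm _).trans (by gcongr)
    _ = θ * ‖(star X * X) x‖ := by field_simp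

/-- An integrable kernel whose Fourier integral is a bump function. -/
lemma exists_kernel : ∃ k : ℝ → ℂ, Integrable k ∧ ∀ u : ℝ,
    (|u| ≤ 1 → ∫ w, k w * character (2 * Real.pi * w) u = 1) ∧
    (2 ≤ |u| → ∫ w, k w * character (2 * Real.pi * w) u = 0) := by
  let b : ContDiffBump (0 : ℝ) := ⟨1, 2, one_pos, one_lt_two⟩
  have h1 : HasCompactSupport fun u => ((b u : ℝ) : ℂ) :=
    b.hasCompactSupport.comp_left (g := fun r : ℝ => (r : ℂ)) (by simp)
  have h2 : ContDiff ℝ ((⊤ : ℕ∞) : WithTop ℕ∞) fun u => ((b u : ℝ) : ℂ) := Complex.ofRealCLM.contDiff.comp b.contDiff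
  let f := h1.toSchwartzMap h2
  have hint : Integrable (𝓕 (f : ℝ → ℂ)) := by
    rw [← SchwartzMap.fourier_coe]; exact (𝓕 f).integrable
  have hinv := f.continuous.fourierInv_fourier_eq f.integrable hint
  have key : ∀ u : ℝ, ∫ w, 𝓕 (f : ℝ → ℂ) w * character (2 * Real.pi * w) u = b u := by
    intro u
    have := congrFun hinv u
    rw [Real.fourierInv_eq'] at this
    change _ = ((b u : ℝ) : ℂ) at this
    rw [← this]
    congr 1; ext w
    rw [character_apply, smul_eq_mul, mul_comm]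
    congr 2
    simp only [RCLike.inner_apply, conj_trivial]
    push_cast; ring
  refine ⟨_, hint, fun u => ⟨fun hu => ?_, fun hu => ?_⟩⟩
  · rw [key, b.one_of_mem_closedBall (by simpa using hu)]; simp
  · rw [key, b.zero_of_le_dist (by simpa using hu)]; simp

/-- Uniform spectral localisation inside `M`. -/
lemma exists_localise : ∃ C₀ : ℝ, 0 < C₀ ∧ ∀ {H : Type*} [NormedAddCommGroup H]
    [InnerProductSpace ℂ H] [CompleteSpace H] (S : ModularDatum H) (s r : ℝ), 0 < r →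
    ∀ b ∈ S.M, ∃ b' ∈ S.M, ‖b'‖ ≤ C₀ * ‖b‖ ∧
      S.D.SupportedIn (Set.Icc (s - 2 * r) (s + 2 * r)) (b' S.vac) ∧
      ∀ x, S.D.SupportedIn (Set.Icc (s - r) (s + r)) x →
        ‖b' S.vac - x‖ ≤ C₀ * ‖b S.vac - x‖ := by
  obtain ⟨k, hk, hku⟩ := exists_kernel
  refine ⟨(∫ w, ‖k w‖) + 1, by positivity, ?_⟩
  intro H _ _ _ S s r hr b hb
  let k' : ℝ → ℂ := fun w => k w * character (2 * Real.pi * w) (-s / r)
  have hk' : Integrable k' := by
    refine Integrable.mono' hk.norm (hk.aestronglyMeasurable.mul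
      (Continuous.aestronglyMeasurable ?_)) ?_
    · simp only [character_apply]; fun_prop
    · filter_upwards with w
      simp only [k', norm_mul, norm_character_apply, mul_one, le_refl]
  have hn : ∫ w, ‖k' w‖ = ∫ w, ‖k w‖ := by
    simp only [k', norm_mul, norm_character_apply, mul_one]
  have hτ : Continuous fun w : ℝ => 2 * Real.pi * w / r := by fun_prop
  obtain ⟨b', hb', h1, h2⟩ := exists_smooth S volume k' _ hk' hτ hb
  have hval : ∀ u, fourierBCF volume k' _ hk' hτ u =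
      ∫ w, k w * character (2 * Real.pi * w) ((u - s) / r) := by
    intro u
    rw [fourierBCF_apply]
    congr 1; ext w
    simp only [k', character_apply, mul_assoc, ← Complex.exp_add]
    congr 2
    push_cast
    field_simp
    ring
  refine ⟨b', hb', h1.trans ?_, ?_, fun x hx => ?_⟩
  · rw [hn]; gcongr; linarith
  · rw [h2]
    refine supp_app_of_vanish S.D _ _ fun u hu => ?_
    rw [hval]
    refine (hku _).2 ?_
    rw [abs_div, abs_of_pos hr, le_div_iff₀ hr]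
    by_contra! hcon
    rw [abs_lt] at hcon
    exact hu ⟨by linarith [hcon.1], by linarith [hcon.2]⟩
  · have hx' : S.D.apply (fourierBCF volume k' _ hk' hτ) x = x := by
      refine app_eq_self_of_supp S.D hx _ fun u hu => ?_
      rw [hval]
      refine (hku _).1 ?_
      rw [abs_div, abs_of_pos hr, div_le_one hr, abs_le]
      exact ⟨by linarith [hu.1], by linarith [hu.2]⟩
    rw [h2]
    conv_lhs => rw [← hx', ← map_sub]
    refine (norm_app_apply_le _ _ _).trans ?_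
    gcongr
    refine (norm_fourierBCF_le _ _ _ _ _).trans ?_
    rw [hn]; linarith

/-- Recovery of a single bounded element, with constants independent of the vector. -/
lemma exists_recover (S : ModularDatum H) (herg : S.Ergodic) {ω : Ultrafilter ℕ}
    (hω : (ω : Filter ℕ) ≤ atTop) (T : H →L[ℂ] H) (s : ℝ) {c : ℝ} (hc : 0 < c) :
    ∃ C η : ℝ, 0 < η ∧ ∀ δ : ℝ, 0 < δ → δ ≤ 1 → ∀ h : H, ‖h‖ = 1 →
      S.D.SupportedIn (Set.Icc (s - δ) (s + δ)) h →
      c ≤ ultraMean ω (fun t : ℝ => ‖T (S.D.wave t h)‖ ^ 2) →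
      ∃ v ∈ S.M, ‖v‖ ≤ C ∧ η ≤ ‖T (v S.vac)‖ ∧
        S.D.SupportedIn (Set.Icc (s - 4 * δ) (s + 4 * δ)) (v S.vac) := by
  obtain ⟨C₀, hC₀, hloc⟩ := exists_localise
  set Λ := Real.exp ((s + 2) / 2) with hΛ
  set κ := (c / 4) / (2 * (9 + 8 * Λ ^ 2)) with hκ
  have hκ0 : 0 < κ := by positivity
  set η := Real.sqrt κ / 2 with hη
  have hη0 : 0 < η := by positivity
  set θ := η / (C₀ * (‖T‖ + 1)) with hθ
  have hθ0 : 0 < θ := by positivity
  refine ⟨C₀ * θ⁻¹, η, hη0, fun δ hδ hδ1 h hh hsupp hmean => ?_⟩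
  -- approximate `h` by `a ξ`
  set ε := min 1 (Real.sqrt c / (2 * (‖T‖ + 1))) with hε
  have hε0 : 0 < ε := by positivity
  obtain ⟨_, ⟨a₀, rfl⟩, ha₀⟩ := Metric.dense_iff.1 S.cyclic h (ε / C₀) (by positivity) |>.imp
    fun _ hx => And.symm hx
  obtain ⟨a, ha, -, haK, hah⟩ := hloc S s δ hδ a₀ a₀.2
  have hah' : ‖a S.vac - h‖ ≤ ε := by
    refine (hah h hsupp).trans ?_
    rw [Metric.mem_ball, dist_eq_norm, lt_div_iff₀ hC₀] at ha₀
    linarith
  have ha2 : ‖a S.vac‖ ≤ 2 := by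
    have := norm_add_le (a S.vac - h) h
    rw [sub_add_cancel, hh] at this
    linarith [min_le_left 1 (Real.sqrt c / (2 * (‖T‖ + 1)))]
  have hbd : ∀ x : H, ∀ t, ‖‖T (S.D.wave t x)‖ ^ 2‖ ≤ (‖T‖ * ‖x‖) ^ 2 := fun x t => by
    rw [Real.norm_eq_abs, abs_of_nonneg (by positivity)]
    gcongr
    refine (T.le_opNorm _).trans ?_
    rw [norm_wave_apply]
  have hcont : ∀ x : H, Continuous fun t => ‖T (S.D.wave t x)‖ ^ 2 := fun x =>
    ((T.continuous.comp (continuous_wave_apply S.D _)).norm).pow 2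
  have hm1 := hasMean_ultraMean ω (hbd h)
  have hm2 := hasMean_ultraMean ω (hbd (a S.vac))
  have hTε : (‖T‖ * ε) ^ 2 ≤ c / 4 := by
    have h1 : ‖T‖ * ε ≤ Real.sqrt c / 2 := by
      calc ‖T‖ * ε ≤ (‖T‖ + 1) * (Real.sqrt c / (2 * (‖T‖ + 1))) := by
            gcongr
            · linarith
            · exact min_le_right _ _
        _ = Real.sqrt c / 2 := by field_simp
    calc (‖T‖ * ε) ^ 2 ≤ (Real.sqrt c / 2) ^ 2 := by gcongr
      _ = c / 4 := by rw [div_pow, Real.sq_sqrt hc.le]; norm_num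
  have hle := hm1.mono (hcont h) (by have := hcont (a S.vac); fun_prop)
    ((hm2.const_mul (hcont _) 2).add (by have := hcont (a S.vac); fun_prop) continuous_const
      (hasMean_const hω (c / 2))) fun t => by
      have h1 : ‖T (S.D.wave t h)‖ ≤ ‖T (S.D.wave t (a S.vac))‖ + ‖T‖ * ε := by
        have e : T (S.D.wave t h) = T (S.D.wave t (a S.vac)) - T (S.D.wave t (a S.vac - h)) := by
          simp
        rw [e]
        refine (norm_sub_le _ _).trans ?_
        gcongr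
        refine (T.le_opNorm _).trans ?_
        rw [norm_wave_apply]
        gcongr
      have h2 : ‖T (S.D.wave t h)‖ ^ 2 ≤ (‖T (S.D.wave t (a S.vac))‖ + ‖T‖ * ε) ^ 2 := by gcongr
      nlinarith [sq_nonneg (‖T (S.D.wave t (a S.vac))‖ - ‖T‖ * ε)]
  obtain ⟨X, hX, hXK, hX1, hXκ⟩ := exists_good_element S herg hω T
    (K := Set.Icc (s - 2 * δ) (s + 2 * δ)) (Λ := Λ)
    (fun X hX hXK => norm_star_vac_le S (r := s + 2) (fun u hu => by linarith [hu.2]) hX hXK)
    ha haK ha2 (c := c / 4) (by positivity) (by linarith) hm2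
  obtain ⟨v, hv, hvn, hvX⟩ := exists_trunc S.M hX hθ0
  obtain ⟨v', hv', hvn', hvK, hvv⟩ := hloc S s (2 * δ) (by positivity) v hv
  refine ⟨v', hv', hvn'.trans (by gcongr), ?_, ?_⟩
  · have h1 : ‖v' S.vac - X S.vac‖ ≤ C₀ * θ := by
      refine (hvv _ hXK).trans ?_
      gcongr
      rw [norm_sub_rev]
      refine (hvX _).trans ?_
      calc θ * ‖(star X * X) S.vac‖ ≤ θ * 1 := by gcongr
        _ = θ := mul_one _
    have h2 : 2 * η ≤ ‖T (X S.vac)‖ := by
      rw [hη, mul_div_cancel₀ _ two_ne_zero]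
      exact Real.sqrt_le_iff.2 ⟨norm_nonneg _, hXκ⟩
    have h3 : ‖T (X S.vac)‖ ≤ ‖T (v' S.vac)‖ + η := by
      have e : T (X S.vac) = T (v' S.vac) - T (v' S.vac - X S.vac) := by simp
      rw [e]
      refine (norm_sub_le _ _).trans ?_
      gcongr
      calc ‖T (v' S.vac - X S.vac)‖ ≤ ‖T‖ * ‖v' S.vac - X S.vac‖ := T.le_opNorm _
        _ ≤ (‖T‖ + 1) * (C₀ * θ) := by gcongr; linarith
        _ = η := by rw [hθ]; field_simp
    linarith
  · convert hvK using 2 <;> ring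

end Crest.Agent.R84
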