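import Crest.Agent.R84.Modular

/-! Means along a free ultrafilter, and the ergodic theorem for the modular flow in the weak
operator sense. -/

set_option autoImplicit false

open MeasureTheory Filter Topology
open scoped InnerProductSpace BoundedContinuousFunction
open Crest.OpAlg Crest.OpAlg.LineCalculus

namespace Crest.Agent.R84

section Mean

variable {E : Type*} [NormedAddCommGroup E] [NormedSpace ℝ E]

/-- window average, written with an interval integral -/
noncomputable def wAvg (F : ℝ → E) (k : ℕ) : E := (2 * (k : ℝ))⁻¹ • ∫ t in (-(k : ℝ))..k, F t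

/-- `ℓ` is the `ω`-limit of the window averages of `F`. -/
def HasMean (ω : Ultrafilter ℕ) (F : ℝ → E) (ℓ : E) : Prop :=
  Tendsto (wAvg F) (ω : Filter ℕ) (𝓝 ℓ)

lemma windowMean_eq (F : ℝ → ℝ) : windowMean F = wAvg F := by
  ext k
  have hk : -(k : ℝ) ≤ k := by have : (0 : ℝ) ≤ k := Nat.cast_nonneg k; linarith
  rw [windowMean, wAvg, setAverage_eq, intervalIntegral.integral_of_le hk,
    integral_Icc_eq_integral_Ioc, Real.volume_real_Icc_of_le hk]
  congr 2; ring

lemma norm_wAvg_le {F : ℝ → E} {C : ℝ} (hC : ∀ t, ‖F t‖ ≤ C) (k : ℕ) : ‖wAvg F k‖ ≤ C := by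
  have hC0 : 0 ≤ C := (norm_nonneg _).trans (hC 0)
  rcases Nat.eq_zero_or_pos k with rfl | hk
  · simp [wAvg, hC0]
  · have hk' : (0 : ℝ) < k := by exact_mod_cast hk
    have := intervalIntegral.norm_integral_le_of_norm_le_const (a := -(k : ℝ)) (b := k) (f := F)
      (C := C) fun t _ => hC t
    rw [wAvg, norm_smul, Real.norm_eq_abs, abs_of_pos (by positivity)]
    rw [abs_of_pos (by linarith)] at this
    rw [inv_mul_le_iff₀ (by positivity)]
    linarith

lemma exists_hasMean [ProperSpace E] (ω : Ultrafilter ℕ) {F : ℝ → E} {C : ℝ}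
    (hC : ∀ t, ‖F t‖ ≤ C) : ∃ ℓ, HasMean ω F ℓ := by
  have hc : IsCompact (Metric.closedBall (0 : E) C) := isCompact_closedBall 0 C
  obtain ⟨ℓ, -, hℓ⟩ := hc.ultrafilter_le_nhds (ω.map (wAvg F)) (by
    rw [Ultrafilter.coe_map, le_principal_iff, mem_map]
    exact Eventually.of_forall fun k => mem_closedBall_zero_iff.2 (norm_wAvg_le hC k))
  exact ⟨ℓ, hℓ⟩

lemma HasMean.norm_le {ω : Ultrafilter ℕ} {F : ℝ → E} {ℓ : E} (h : HasMean ω F ℓ) {C : ℝ}
    (hC : ∀ t, ‖F t‖ ≤ C) : ‖ℓ‖ ≤ C :=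
  le_of_tendsto' (Tendsto.norm h) (norm_wAvg_le hC)

lemma HasMean.unique {ω : Ultrafilter ℕ} {F : ℝ → E} {ℓ ℓ' : E} (h : HasMean ω F ℓ)
    (h' : HasMean ω F ℓ') : ℓ = ℓ' := tendsto_nhds_unique h h'

lemma hasMean_ultraMean (ω : Ultrafilter ℕ) {F : ℝ → ℝ} {C : ℝ} (hC : ∀ t, ‖F t‖ ≤ C) :
    HasMean ω F (ultraMean ω F) := by
  obtain ⟨ℓ, hℓ⟩ := exists_hasMean ω hC
  have : ultraMean ω F = ℓ := by
    rw [ultraMean, windowMean_eq]
    exact Tendsto.limUnder_eq hℓ
  rwa [this]

lemma HasMean.add {ω : Ultrafilter ℕ} {F G : ℝ → E} {ℓ m : E} (hF : Continuous F)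
    (hG : Continuous G) (h : HasMean ω F ℓ) (h' : HasMean ω G m) :
    HasMean ω (fun t => F t + G t) (ℓ + m) := by
  refine (Tendsto.add h h').congr fun k => ?_
  simp only [wAvg]
  rw [intervalIntegral.integral_add (hF.intervalIntegrable _ _) (hG.intervalIntegrable _ _),
    smul_add]

lemma HasMean.clm [CompleteSpace E] {E' : Type*} [NormedAddCommGroup E'] [NormedSpace ℝ E']
    [CompleteSpace E'] (L : E →L[ℝ] E') {ω : Ultrafilter ℕ} {F : ℝ → E} {ℓ : E}
    (hF : Continuous F) (h : HasMean ω F ℓ) : HasMean ω (fun t => L (F t)) (L ℓ) := by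
  refine ((L.continuous.tendsto ℓ).comp h).congr fun k => ?_
  simp only [wAvg, Function.comp_apply, map_smul]
  rw [L.intervalIntegral_comp_comm (hF.intervalIntegrable _ _)]

lemma hasMean_const [CompleteSpace E] {ω : Ultrafilter ℕ} (hω : (ω : Filter ℕ) ≤ atTop) (c : E) :
    HasMean ω (fun _ => c) c := by
  refine tendsto_const_nhds.congr' ?_
  filter_upwards [hω (eventually_gt_atTop 0)] with k hk
  have hk' : (0 : ℝ) < k := by exact_mod_cast hk
  simp only [wAvg, intervalIntegral.integral_const, smul_smul]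
  rw [show (2 * (k : ℝ))⁻¹ * (k - -k) = 1 by field_simp; ring, one_smul]

lemma HasMean.neg_arg {ω : Ultrafilter ℕ} {F : ℝ → E} {ℓ : E} (h : HasMean ω F ℓ) :
    HasMean ω (fun t => F (-t)) ℓ := by
  refine h.congr fun k => ?_
  simp only [wAvg]
  rw [intervalIntegral.integral_comp_neg, neg_neg]

lemma HasMean.shift {ω : Ultrafilter ℕ} (hω : (ω : Filter ℕ) ≤ atTop) {F : ℝ → E} {ℓ : E}
    (hF : Continuous F) {C : ℝ} (hC : ∀ t, ‖F t‖ ≤ C) (h : HasMean ω F ℓ) (s : ℝ) :
    HasMean ω (fun t => F (t + s)) ℓ := by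
  have hC0 : 0 ≤ C := (norm_nonneg _).trans (hC 0)
  have hd : Tendsto (fun k : ℕ => wAvg (fun t => F (t + s)) k - wAvg F k) atTop (𝓝 0) := by
    rw [tendsto_zero_iff_norm_tendsto_zero]
    have hb : Tendsto (fun k : ℕ => (C * |s|) / (k : ℝ)) atTop (𝓝 0) :=
      tendsto_const_div_atTop_nhds_zero_nat _
    refine squeeze_zero' (Eventually.of_forall fun _ => norm_nonneg _) ?_ hb
    filter_upwards [eventually_gt_atTop 0] with k hk
    have hk' : (0 : ℝ) < k := by exact_mod_cast hk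
    simp only [wAvg]
    rw [← smul_sub, intervalIntegral.integral_comp_add_right,
      intervalIntegral.integral_interval_sub_interval_comm' (hF.intervalIntegrable _ _)
        (hF.intervalIntegrable _ _) (hF.intervalIntegrable _ _), norm_smul, Real.norm_eq_abs,
      abs_of_pos (by positivity)]
    have h1 := intervalIntegral.norm_integral_le_of_norm_le_const (a := (k : ℝ)) (b := k + s)
      (f := F) (C := C) fun t _ => hC t
    have h2 := intervalIntegral.norm_integral_le_of_norm_le_const (a := -(k : ℝ)) (b := -k + s)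
      (f := F) (C := C) fun t _ => hC t
    rw [add_sub_cancel_left] at h1 h2
    have h3 := norm_sub_le (∫ t in (k : ℝ)..k + s, F t) (∫ t in (-k : ℝ)..-k + s, F t)
    rw [inv_mul_le_iff₀ (by positivity)]
    have : 2 * (k : ℝ) * (C * |s| / k) = C * |s| + C * |s| := by field_simp; ring
    linarith
  have := (hd.mono_left hω).add h
  simp only [sub_add_cancel, zero_add] at this
  exact this

lemma HasMean.mono {ω : Ultrafilter ℕ} {F G : ℝ → ℝ} {ℓ m : ℝ} (hF : Continuous F)
    (hG : Continuous G) (h : HasMean ω F ℓ) (h' : HasMean ω G m) (hle : ∀ t, F t ≤ G t) :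
    ℓ ≤ m := by
  refine le_of_tendsto_of_tendsto' h h' fun k => ?_
  have hk : -(k : ℝ) ≤ k := by have : (0 : ℝ) ≤ k := Nat.cast_nonneg k; linarith
  simp only [wAvg, smul_eq_mul]
  gcongr
  exact intervalIntegral.integral_mono_on hk (hF.intervalIntegrable _ _)
    (hG.intervalIntegrable _ _) fun t _ => hle t

lemma HasMean.exists_gt {ω : Ultrafilter ℕ} (hω : (ω : Filter ℕ) ≤ atTop) {F : ℝ → ℝ} {ℓ θ : ℝ}
    (hF : Continuous F) (h : HasMean ω F ℓ) (hθ : θ < ℓ) : ∃ t, θ < F t := by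
  by_contra! hcon
  exact absurd (h.mono hF continuous_const (hasMean_const hω θ) hcon) (not_le.2 hθ)

lemma HasMean.const_mul {ω : Ultrafilter ℕ} {F : ℝ → ℝ} {ℓ : ℝ} (hF : Continuous F)
    (h : HasMean ω F ℓ) (c : ℝ) : HasMean ω (fun t => c * F t) (c * ℓ) :=
  h.clm (ContinuousLinearMap.lsmul ℝ ℝ c) hF

lemma HasMean.cmul {ω : Ultrafilter ℕ} {F : ℝ → ℂ} {ℓ : ℂ} (hF : Continuous F)
    (h : HasMean ω F ℓ) (c : ℂ) : HasMean ω (fun t => c * F t) (c * ℓ) :=
  h.clm (ContinuousLinearMap.mul ℝ ℂ c) hF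

lemma HasMean.re {ω : Ultrafilter ℕ} {F : ℝ → ℂ} {ℓ : ℂ} (hF : Continuous F)
    (h : HasMean ω F ℓ) : HasMean ω (fun t => (F t).re) ℓ.re :=
  h.clm Complex.reCLM hF

end Mean

variable {H : Type*} [NormedAddCommGroup H] [InnerProductSpace ℂ H] [CompleteSpace H]

lemma continuous_inner_flow (S : ModularDatum H) (b : H →L[ℂ] H) (x y : H) :
    Continuous fun t => ⟪S.flow t b x, y⟫_ℂ :=
  (continuous_flow_apply S b x).inner continuous_const

lemma norm_inner_flow_le (S : ModularDatum H) (b : H →L[ℂ] H) (x y : H) (t : ℝ) :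
    ‖⟪S.flow t b x, y⟫_ℂ‖ ≤ ‖b‖ * ‖x‖ * ‖y‖ :=
  (norm_inner_le_norm _ _).trans (by gcongr; exact norm_flow_apply_le S t b x)

/-- The weak-operator mean of the flow exists as a bounded operator. -/
lemma exists_mean_op (S : ModularDatum H) (ω : Ultrafilter ℕ) (b : H →L[ℂ] H) :
    ∃ B : H →L[ℂ] H, ∀ x y, HasMean ω (fun t => ⟪S.flow t b x, y⟫_ℂ) ⟪B x, y⟫_ℂ := by
  choose L hL using fun x y => exists_hasMean ω (norm_inner_flow_le S b x y)
  have hc := continuous_inner_flow S b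
  let L₂ : H →ₛₗ[starRingEnd ℂ] H →ₗ[ℂ] ℂ := LinearMap.mk₂'ₛₗ (starRingEnd ℂ) (RingHom.id ℂ) L
    (fun x x' y => (hL (x + x') y).unique (by
      simpa only [map_add, inner_add_left] using (hL x y).add (hc _ _) (hc _ _) (hL x' y)))
    (fun c x y => (hL (c • x) y).unique (by
      simpa only [map_smul, inner_smul_left, smul_eq_mul] using (hL x y).cmul (hc _ _) _))
    (fun x y y' => (hL x (y + y')).unique (by
      simpa only [inner_add_right] using (hL x y).add (hc _ _) (hc _ _) (hL x y')))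
    (fun c x y => (hL x (c • y)).unique (by
      simpa only [inner_smul_right, smul_eq_mul, RingHom.id_apply] using (hL x y).cmul (hc _ _) _))
  let L₃ : H →L⋆[ℂ] H →L[ℂ] ℂ := L₂.mkContinuous₂ ‖b‖ fun x y =>
    (hL x y).norm_le (norm_inner_flow_le S b x y)
  refine ⟨InnerProductSpace.continuousLinearMapOfBilin L₃, fun x y => ?_⟩
  rw [InnerProductSpace.continuousLinearMapOfBilin_apply]
  exact hL x y

/-- Ergodic theorem: the mean of the flow of `b ∈ M` is the scalar `φ(b)`. -/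
lemma hasMean_flow (S : ModularDatum H) (herg : S.Ergodic) {ω : Ultrafilter ℕ}
    (hω : (ω : Filter ℕ) ≤ atTop) {b : H →L[ℂ] H} (hb : b ∈ S.M) (x y : H) :
    HasMean ω (fun t => ⟪S.flow t b x, y⟫_ℂ) (⟪b S.vac, S.vac⟫_ℂ * ⟪x, y⟫_ℂ) := by
  obtain ⟨B, hB⟩ := exists_mean_op S ω b
  have hBM : B ∈ S.M := by
    refine mem_of_commute S.M fun c hc => ?_
    ext x
    refine ext_inner_right ℂ fun y => ?_
    change ⟪c (B x), y⟫_ℂ = ⟪B (c x), y⟫_ℂ
    rw [← ContinuousLinearMap.adjoint_inner_right]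
    refine (hB x _).unique ?_
    convert hB (c x) y using 2 with t
    rw [ContinuousLinearMap.adjoint_inner_right]
    congr 1
    exact congrArg (fun T : H →L[ℂ] H => T x) (commute_of_mem S.M (flow_mem S t hb) hc)
  have hBinv : ∀ s, S.flow s B = B := by
    intro s
    ext x
    refine ext_inner_right ℂ fun y => ?_
    rw [flow_apply, inner_wave_left]
    refine (hB _ _).unique ?_
    convert (hB x y).shift hω (continuous_inner_flow S b x y) (norm_inner_flow_le S b x y) s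
      using 2 with t
    rw [← inner_wave_left, add_comm, ← flow_flow]
    rfl
  obtain ⟨c, hc⟩ := herg B hBM hBinv
  have hcv : (starRingEnd ℂ) c = ⟪b S.vac, S.vac⟫_ℂ := by
    have h1 := hB S.vac S.vac
    have h2 : HasMean ω (fun t => ⟪S.flow t b S.vac, S.vac⟫_ℂ) ⟪b S.vac, S.vac⟫_ℂ := by
      convert hasMean_const hω ⟪b S.vac, S.vac⟫_ℂ using 2 with t
      rw [flow_vac, inner_wave_left, wave_vac]
    rw [← h1.unique h2, hc]
    simp [S.norm_vac]
  convert hB x y using 1
  rw [hc, ← hcv]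
  simp [mul_comm]

end Crest.Agent.R84
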