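import Crest.Agent.R84.Calculus

/-! Consequences of the Tomita condition: invariance of the vacuum, bound on adjoints of
spectrally bounded elements; the flow and its strong averages. -/

set_option autoImplicit false

open MeasureTheory Filter Topology
open scoped InnerProductSpace BoundedContinuousFunction
open Crest.OpAlg Crest.OpAlg.LineCalculus

namespace Crest.Agent.R84

variable {H : Type*} [NormedAddCommGroup H] [InnerProductSpace ℂ H] [CompleteSpace H]

/-- A continuous compactly supported function as a bounded continuous function. -/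
noncomputable def ofCS (f : ℝ → ℂ) (hf : Continuous f) (hc : HasCompactSupport f) : ℝ →ᵇ ℂ :=
  BoundedContinuousFunction.ofNormedAddCommGroup f hf
    (Classical.choose (hf.bounded_above_of_compact_support hc))
    (Classical.choose_spec (hf.bounded_above_of_compact_support hc))

@[simp] lemma ofCS_apply (f : ℝ → ℂ) (hf : Continuous f) (hc : HasCompactSupport f) (u : ℝ) :
    ofCS f hf hc u = f u := rfl

/-- Multiply a compactly supported bounded continuous function by a continuous function. -/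
noncomputable def mulCS (χ : ℝ →ᵇ ℂ) (hχ : HasCompactSupport (χ : ℝ → ℂ)) (g : ℝ → ℂ)
    (hg : Continuous g) : ℝ →ᵇ ℂ :=
  ofCS (fun u => χ u * g u) (χ.continuous.mul hg) hχ.mul_right

@[simp] lemma mulCS_apply (χ : ℝ →ᵇ ℂ) (hχ : HasCompactSupport (χ : ℝ → ℂ)) (g : ℝ → ℂ)
    (hg : Continuous g) (u : ℝ) : mulCS χ hχ g hg u = χ u * g u := rfl

lemma hasCompactSupport_mulCS (χ : ℝ →ᵇ ℂ) (hχ : HasCompactSupport (χ : ℝ → ℂ)) (g : ℝ → ℂ)
    (hg : Continuous g) : HasCompactSupport (mulCS χ hχ g hg : ℝ → ℂ) :=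
  hχ.mul_right

lemma continuous_halfExp : Continuous fun u : ℝ => ((Real.exp (u / 2) : ℝ) : ℂ) := by fun_prop

lemma halfExp_of_mem (S : ModularDatum H) {a : H →L[ℂ] H} (ha : a ∈ S.M) :
    S.D.HalfExp (a S.vac) (S.J (star a S.vac)) := by
  have : (a S.vac, star a S.vac) ∈ closure (Set.range fun a : S.M =>
      ((a : H →L[ℂ] H) S.vac, star (a : H →L[ℂ] H) S.vac)) :=
    subset_closure ⟨⟨a, ha⟩, rfl⟩
  rw [S.tomita] at this
  exact this

lemma inner_vac_of_halfExp (S : ModularDatum H) {x y : H} (h : S.D.HalfExp x (S.J y)) :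
    ⟪S.vac, x⟫_ℂ = ⟪y, S.vac⟫_ℂ := by
  have h1 : (x, y) ∈ closure (Set.range fun a : S.M =>
      ((a : H →L[ℂ] H) S.vac, star (a : H →L[ℂ] H) S.vac)) := by
    rw [S.tomita]; exact h
  have hcl : IsClosed {p : H × H | ⟪S.vac, p.1⟫_ℂ = ⟪p.2, S.vac⟫_ℂ} :=
    isClosed_eq (by fun_prop) (by fun_prop)
  refine closure_minimal ?_ hcl h1
  rintro _ ⟨a, rfl⟩
  simp only [Set.mem_setOf_eq, ContinuousLinearMap.star_eq_adjoint,
    ContinuousLinearMap.adjoint_inner_left]

lemma inner_J_J (S : ModularDatum H) (x y : H) : ⟪S.J x, S.J y⟫_ℂ = ⟪y, x⟫_ℂ := by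
  rw [inner_eq_sum_norm_sq_div_four, inner_eq_sum_norm_sq_div_four]
  have e1 : ‖S.J x + S.J y‖ = ‖y + x‖ := by rw [← map_add, S.J.norm_map, add_comm]
  have e2 : ‖S.J x - S.J y‖ = ‖y - x‖ := by rw [← map_sub, S.J.norm_map, norm_sub_rev]
  have hI : ∀ z : H, (RCLike.I : ℂ) • S.J z = -S.J ((RCLike.I : ℂ) • z) := by
    intro z
    rw [S.J.map_smulₛₗ]
    simp
  have hn : ∀ z : H, ‖(RCLike.I : ℂ) • z‖ = ‖z‖ := by
    intro z; rw [norm_smul]; simp
  have hII : ∀ z : H, (RCLike.I : ℂ) • (RCLike.I : ℂ) • z = -z := by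
    intro z; rw [smul_smul]; simp
  have e3 : ‖S.J x - (RCLike.I : ℂ) • S.J y‖ = ‖y - (RCLike.I : ℂ) • x‖ := by
    rw [hI, sub_neg_eq_add, ← map_add, S.J.norm_map, ← hn (y - _), smul_sub, hII, sub_neg_eq_add,
      add_comm]
  have e4 : ‖S.J x + (RCLike.I : ℂ) • S.J y‖ = ‖y + (RCLike.I : ℂ) • x‖ := by
    rw [hI, ← sub_eq_add_neg, ← map_sub, S.J.norm_map, ← hn (y + _), smul_add, hII,
      ← sub_eq_add_neg, norm_sub_rev]
  rw [e1, e2, e3, e4]

/-- `F(D) (e^D - 1) ξ = 0` for compactly supported `F`. -/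
lemma app_mul_exp_vac (S : ModularDatum H) (F : ℝ →ᵇ ℂ) (hF : HasCompactSupport (F : ℝ → ℂ)) :
    S.D.apply (mulCS F hF (fun u => ((Real.exp u : ℝ) : ℂ)) (by fun_prop)) S.vac
      = S.D.apply F S.vac := by
  -- `f = star F`, `g = f e^{u/2}`
  have hf : HasCompactSupport ((star F : ℝ →ᵇ ℂ) : ℝ → ℂ) := by
    have := hF.comp_left (g := fun z : ℂ => star z) (by simp)
    exact this
  set g := mulCS (star F) hf _ continuous_halfExp with hg
  have key : ∀ z : H, ⟪S.vac, S.D.apply (star F) z⟫_ℂ = ⟪S.J S.vac, S.D.apply g z⟫_ℂ := by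
    intro z
    have h1 : S.D.HalfExp (S.D.apply (star F) z) (S.J (S.J (S.D.apply g z))) := by
      rw [S.J_J]
      intro f' g' hfg
      rw [app_app, app_app]
      congr 2
      ext u
      simp only [BoundedContinuousFunction.mul_apply, hfg u, hg, mulCS_apply]
      ring
    rw [inner_vac_of_halfExp S h1]
    conv_lhs => rw [← S.J_J S.vac]
    rw [inner_J_J]
  have key2 : S.D.apply F S.vac = S.D.apply (star g) (S.J S.vac) := by
    refine ext_inner_right ℂ fun z => ?_
    have e1 : ⟪S.D.apply F S.vac, z⟫_ℂ = ⟪S.vac, S.D.apply (star F) z⟫_ℂ := by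
      rw [map_star, ContinuousLinearMap.star_eq_adjoint, ContinuousLinearMap.adjoint_inner_right]
    have e2 : ⟪S.D.apply (star g) (S.J S.vac), z⟫_ℂ = ⟪S.J S.vac, S.D.apply g z⟫_ℂ := by
      rw [map_star, ContinuousLinearMap.star_eq_adjoint, ContinuousLinearMap.adjoint_inner_left]
    rw [e1, e2, key]
  have h1 := halfExp_of_mem S (one_mem S.M)
  simp only [star_one, ContinuousLinearMap.one_apply] at h1
  rw [key2]
  symm
  refine h1 _ _ fun u => ?_
  simp only [mulCS_apply, hg, BoundedContinuousFunction.star_apply, star_mul', star_star,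
    Complex.star_def, Complex.conj_ofReal, Complex.conj_conj]
  rw [mul_assoc, ← Complex.ofReal_mul, ← Real.exp_add, add_halves]

lemma wave_vac (S : ModularDatum H) (t : ℝ) : S.D.wave t S.vac = S.vac := by
  have h0 : S.D.apply (character t - 1) S.vac = 0 := by
    refine app_eq_zero_of_window S.D _ _ fun χ hχ => ?_
    -- the quotient `(e^{itu} - 1) / (e^u - 1)`
    let p : ℝ → ℂ := fun u => character t u
    let q : ℝ → ℂ := fun u => ((Real.exp u : ℝ) : ℂ)
    have hp : Differentiable ℝ p := by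
      simp only [p, character_apply]; fun_prop
    have hq : ∀ u, HasDerivAt q (q u) u := fun u => (Real.hasDerivAt_exp u).ofReal_comp
    have hcont : ∀ r : ℝ → ℂ, Differentiable ℝ r → Continuous (dslope r 0) := by
      intro r hr
      rw [continuous_iff_continuousAt]
      intro u
      by_cases hu : u = 0
      · subst hu; exact continuousAt_dslope_same.2 (hr 0)
      · exact (continuousAt_dslope_of_ne hu).2 hr.continuous.continuousAt
    have hqne : ∀ u, dslope q 0 u ≠ 0 := by
      intro u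
      by_cases hu : u = 0
      · subst hu; rw [dslope_same, (hq 0).deriv]; simp [q]
      · rw [dslope_of_ne _ hu, slope_def_module]
        refine smul_ne_zero (inv_ne_zero (by simpa using hu)) ?_
        simp only [q, Real.exp_zero, ne_eq, sub_eq_zero, Complex.ofReal_inj,
          Real.exp_eq_one_iff]
        exact hu
    have hk : Continuous fun u => dslope p 0 u / dslope q 0 u :=
      (hcont p hp).div (hcont q fun u => (hq u).differentiableAt) hqne
    have := app_mul_exp_vac S (mulCS χ hχ _ hk) (hasCompactSupport_mulCS χ hχ _ hk)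
    rw [← sub_eq_zero, ← ContinuousLinearMap.sub_apply, ← map_sub] at this
    convert this using 3
    ext u
    simp only [BoundedContinuousFunction.mul_apply, BoundedContinuousFunction.sub_apply,
      BoundedContinuousFunction.coe_one, Pi.one_apply, mulCS_apply]
    have e1 := sub_smul_dslope p 0 u
    have e2 := sub_smul_dslope q 0 u
    have p0 : p 0 = 1 := by simp [p, character_apply]
    have q0 : q 0 = 1 := by simp [q]
    rw [p0, sub_zero, Complex.real_smul] at e1
    rw [q0, sub_zero, Complex.real_smul] at e2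
    have := hqne u
    change (p u - 1) * χ u = χ u * (dslope p 0 u / dslope q 0 u) * q u -
      χ u * (dslope p 0 u / dslope q 0 u)
    rw [← mul_sub_one, ← e1, ← e2]
    field_simp
  rw [map_sub, map_one, ContinuousLinearMap.sub_apply, sub_eq_zero] at h0
  exact h0

/-! ### Spectral supports -/

lemma supp_add (D : LineCalculus H) {K : Set ℝ} {x y : H} (hx : D.SupportedIn K x)
    (hy : D.SupportedIn K y) : D.SupportedIn K (x + y) := fun f hf => by
  rw [map_add, hx f hf, hy f hf, add_zero]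

lemma supp_smul (D : LineCalculus H) {K : Set ℝ} {x : H} (c : ℂ) (hx : D.SupportedIn K x) :
    D.SupportedIn K (c • x) := fun f hf => by
  rw [map_smul, hx f hf, smul_zero]

lemma supp_zero (D : LineCalculus H) (K : Set ℝ) : D.SupportedIn K 0 := fun f _ => map_zero _

lemma supp_app (D : LineCalculus H) {K : Set ℝ} {x : H} (g : ℝ →ᵇ ℂ) (hx : D.SupportedIn K x) :
    D.SupportedIn K (D.apply g x) := fun f hf => by
  rw [app_app]
  exact hx _ fun u hu => by simp [hf u hu]

lemma supp_app_of_vanish (D : LineCalculus H) {K : Set ℝ} (x : H) (g : ℝ →ᵇ ℂ)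
    (hg : ∀ u, u ∉ K → g u = 0) : D.SupportedIn K (D.apply g x) := fun f hf => by
  rw [app_app]
  have : f * g = 0 := by
    ext u
    by_cases hu : u ∈ K
    · simp [hf u hu]
    · simp [hg u hu]
  rw [this, map_zero]; rfl

lemma app_eq_self_of_supp (D : LineCalculus H) {K : Set ℝ} {x : H} (hx : D.SupportedIn K x)
    (g : ℝ →ᵇ ℂ) (hg : ∀ u ∈ K, g u = 1) : D.apply g x = x := by
  have := hx (g - 1) fun u hu => by simp [hg u hu]
  rwa [map_sub, map_one, ContinuousLinearMap.sub_apply, sub_eq_zero] at this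

lemma norm_le_of_halfExp (D : LineCalculus H) {K : Set ℝ} {r : ℝ} (hK : ∀ u ∈ K, u ≤ r)
    {x y : H} (hx : D.SupportedIn K x) (hxy : D.HalfExp x y) :
    ‖y‖ ≤ Real.exp (r / 2) * ‖x‖ := by
  let f : ℝ →ᵇ ℂ := BoundedContinuousFunction.ofNormedAddCommGroup
    (fun u => ((Real.exp (min (r - u) 0 / 2) : ℝ) : ℂ)) (by fun_prop) 1 (fun u => by
      rw [Complex.norm_real, Real.norm_eq_abs, abs_of_pos (Real.exp_pos _), Real.exp_le_one_iff]
      have := min_le_right (r - u) 0
      linarith)
  have hgb : ∀ u : ℝ, ‖((Real.exp (min r u / 2) : ℝ) : ℂ)‖ ≤ Real.exp (r / 2) := fun u => by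
    rw [Complex.norm_real, Real.norm_eq_abs, abs_of_pos (Real.exp_pos _), Real.exp_le_exp]
    have := min_le_left r u
    linarith
  let g : ℝ →ᵇ ℂ := BoundedContinuousFunction.ofNormedAddCommGroup
    (fun u => ((Real.exp (min r u / 2) : ℝ) : ℂ)) (by fun_prop) (Real.exp (r / 2)) hgb
  have hfg : D.apply f y = D.apply g x := by
    refine hxy f g fun u => ?_
    change ((Real.exp (min r u / 2) : ℝ) : ℂ) =
      ((Real.exp (min (r - u) 0 / 2) : ℝ) : ℂ) * ((Real.exp (u / 2) : ℝ) : ℂ)
    rw [← Complex.ofReal_mul, ← Real.exp_add]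
    congr 2
    rcases le_total r u with h | h
    · rw [min_eq_left h, min_eq_left (by linarith)]; ring
    · rw [min_eq_right h, min_eq_right (by linarith)]; ring
  have hy : D.apply (f - 1) y = 0 := by
    refine app_eq_zero_of_window D _ _ fun χ hχ => ?_
    have hc : HasCompactSupport (((f - 1) * χ : ℝ →ᵇ ℂ) : ℝ → ℂ) := hχ.mul_left
    rw [hxy _ (mulCS _ hc _ continuous_halfExp) fun u => rfl]
    refine hx _ fun u hu => ?_
    have : f u = 1 := by
      change ((Real.exp (min (r - u) 0 / 2) : ℝ) : ℂ) = 1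
      rw [min_eq_right (by linarith [hK u hu])]; simp
    simp [this]
  rw [map_sub, map_one, ContinuousLinearMap.sub_apply, sub_eq_zero,
    ContinuousLinearMap.one_apply] at hy
  rw [← hy, hfg]
  refine (norm_app_apply_le D g x).trans ?_
  gcongr
  exact (BoundedContinuousFunction.norm_le (Real.exp_pos _).le).2 hgb

lemma norm_star_vac_le (S : ModularDatum H) {K : Set ℝ} {r : ℝ} (hK : ∀ u ∈ K, u ≤ r)
    {a : H →L[ℂ] H} (ha : a ∈ S.M) (hs : S.D.SupportedIn K (a S.vac)) :
    ‖star a S.vac‖ ≤ Real.exp (r / 2) * ‖a S.vac‖ := by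
  have := norm_le_of_halfExp S.D hK hs (halfExp_of_mem S ha)
  rwa [S.J.norm_map] at this

/-! ### The flow -/

lemma flow_apply (S : ModularDatum H) (t : ℝ) (a : H →L[ℂ] H) (x : H) :
    S.flow t a x = S.D.wave t (a (S.D.wave (-t) x)) := rfl

lemma flow_mem (S : ModularDatum H) (t : ℝ) {a : H →L[ℂ] H} (ha : a ∈ S.M) :
    S.flow t a ∈ S.M := S.flow_mem t a ha

lemma flow_vac (S : ModularDatum H) (t : ℝ) (a : H →L[ℂ] H) :
    S.flow t a S.vac = S.D.wave t (a S.vac) := by
  rw [flow_apply, wave_vac]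

lemma flow_mul (S : ModularDatum H) (t : ℝ) (a b : H →L[ℂ] H) :
    S.flow t (a * b) = S.flow t a * S.flow t b := by
  ext x
  change S.D.wave t (a (b (S.D.wave (-t) x))) =
    S.D.wave t (a (S.D.wave (-t) (S.D.wave t (b (S.D.wave (-t) x)))))
  rw [wave_neg_wave]

lemma star_flow (S : ModularDatum H) (t : ℝ) (a : H →L[ℂ] H) :
    star (S.flow t a) = S.flow t (star a) := by
  simp only [ModularDatum.flow, star_mul, star_wave, neg_neg, mul_assoc]

lemma flow_flow (S : ModularDatum H) (s t : ℝ) (a : H →L[ℂ] H) :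
    S.flow s (S.flow t a) = S.flow (s + t) a := by
  ext x
  simp only [flow_apply, wave_wave]
  congr 3; ring_nf

lemma norm_flow_apply_le (S : ModularDatum H) (t : ℝ) (a : H →L[ℂ] H) (x : H) :
    ‖S.flow t a x‖ ≤ ‖a‖ * ‖x‖ := by
  rw [flow_apply, norm_wave_apply]
  refine (a.le_opNorm _).trans ?_
  rw [norm_wave_apply]

lemma continuous_flow_apply (S : ModularDatum H) (a : H →L[ℂ] H) (x : H) :
    Continuous fun t => S.flow t a x :=
  continuous_wave_comp S.D continuous_id
    (a.continuous.comp ((continuous_wave_apply S.D x).comp continuous_neg))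

lemma mem_of_commute (M : VonNeumannAlgebra H) {b : H →L[ℂ] H}
    (h : ∀ c ∈ M.commutant, c * b = b * c) : b ∈ M := by
  rw [← M.commutant_commutant, VonNeumannAlgebra.mem_commutant_iff]
  exact h

lemma commute_of_mem (M : VonNeumannAlgebra H) {b c : H →L[ℂ] H} (hb : b ∈ M)
    (hc : c ∈ M.commutant) : c * b = b * c :=
  (VonNeumannAlgebra.mem_commutant_iff.1 hc b hb).symm

lemma smul_mem_M (M : VonNeumannAlgebra H) (c : ℂ) {b : H →L[ℂ] H} (hb : b ∈ M) : c • b ∈ M :=
  M.toStarSubalgebra.smul_mem hb c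

/-- Smoothing: for `b ∈ M` and an integrable kernel there is `b' ∈ M` with controlled norm and
`b' ξ = k̂(D) b ξ`. -/
lemma exists_smooth (S : ModularDatum H) (μ : Measure ℝ) (k : ℝ → ℂ) (τ : ℝ → ℝ)
    (hk : Integrable k μ) (hτ : Continuous τ) {b : H →L[ℂ] H} (hb : b ∈ S.M) :
    ∃ b' ∈ S.M, ‖b'‖ ≤ (∫ w, ‖k w‖ ∂μ) * ‖b‖ ∧
      b' S.vac = S.D.apply (fourierBCF μ k τ hk hτ) (b S.vac) := by
  have hint : ∀ x : H, Integrable (fun w => k w • S.flow (τ w) b x) μ := fun x =>
    integrable_smul_of_bdd hk ((continuous_flow_apply S b x).comp hτ)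
      (fun w => norm_flow_apply_le S _ b x)
  let L : H →ₗ[ℂ] H :=
    { toFun := fun x => ∫ w, k w • S.flow (τ w) b x ∂μ
      map_add' := fun x y => by
        rw [← integral_add (hint x) (hint y)]
        simp only [map_add, smul_add]
      map_smul' := fun c x => by
        rw [RingHom.id_apply, ← integral_smul]
        simp only [map_smul, smul_comm c] }
  have hL : ∀ x, ‖L x‖ ≤ ((∫ w, ‖k w‖ ∂μ) * ‖b‖) * ‖x‖ := fun x => by
    rw [mul_assoc, ← integral_mul_const]
    refine norm_integral_le_of_norm_le (hk.norm.mul_const _) ?_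
    filter_upwards with w
    rw [norm_smul]; gcongr; exact norm_flow_apply_le S _ b x
  refine ⟨L.mkContinuous _ hL, ?_, ?_, ?_⟩
  · refine mem_of_commute S.M fun c hc => ?_
    ext x
    change c (∫ w, k w • S.flow (τ w) b x ∂μ) = ∫ w, k w • S.flow (τ w) b (c x) ∂μ
    rw [← c.integral_comp_comm (hint x)]
    congr 1; ext w
    rw [map_smul]
    congr 1
    exact congrArg (fun T : H →L[ℂ] H => T x) (commute_of_mem S.M (flow_mem S (τ w) hb) hc)
  · exact L.mkContinuous_norm_le
      (mul_nonneg (integral_nonneg fun _ => norm_nonneg _) (norm_nonneg _)) hL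
  · rw [app_fourierBCF]
    change ∫ w, k w • S.flow (τ w) b S.vac ∂μ = _
    simp only [flow_vac]

end Crest.Agent.R84
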