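import Crest.Agent.R84.Mean

/-! Greedy choice of times and phases: an element `X` with `‖X⋆X ξ‖ ≤ 1` and `‖T X ξ‖² ≥ κ`. -/

set_option autoImplicit false

open MeasureTheory Filter Topology
open scoped InnerProductSpace BoundedContinuousFunction
open Crest.OpAlg Crest.OpAlg.LineCalculus

namespace Crest.Agent.R84

variable {H : Type*} [NormedAddCommGroup H] [InnerProductSpace ℂ H] [CompleteSpace H]

omit [CompleteSpace H] in
lemma four_phase (u v w : H) :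
    ‖u + (1 : ℂ) • v + (starRingEnd ℂ) 1 • w‖ ^ 2 + ‖u + (-1 : ℂ) • v + (starRingEnd ℂ) (-1) • w‖ ^ 2
      + ‖u + Complex.I • v + (starRingEnd ℂ) Complex.I • w‖ ^ 2
      + ‖u + (-Complex.I) • v + (starRingEnd ℂ) (-Complex.I) • w‖ ^ 2
      = 4 * (‖u‖ ^ 2 + ‖v‖ ^ 2 + ‖w‖ ^ 2) := by
  have h1 := parallelogram_law_with_norm ℂ u (v + w)
  have h2 := parallelogram_law_with_norm ℂ u (Complex.I • (v - w))
  have h3 := parallelogram_law_with_norm ℂ v w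
  have h4 : ‖Complex.I • (v - w)‖ = ‖v - w‖ := by rw [norm_smul]; simp
  have e1 : u + (1 : ℂ) • v + (starRingEnd ℂ) 1 • w = u + (v + w) := by simp [add_assoc]
  have e2 : u + (-1 : ℂ) • v + (starRingEnd ℂ) (-1) • w = u - (v + w) := by
    simp only [map_neg, map_one, neg_smul, one_smul]; abel
  have e3 : u + Complex.I • v + (starRingEnd ℂ) Complex.I • w = u + Complex.I • (v - w) := by
    simp only [Complex.conj_I, neg_smul, smul_sub]; abel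
  have e4 : u + (-Complex.I) • v + (starRingEnd ℂ) (-Complex.I) • w = u - Complex.I • (v - w) := by
    simp only [map_neg, Complex.conj_I, neg_neg, neg_smul, smul_sub]; abel
  rw [e1, e2, e3, e4]
  rw [h4] at h2
  nlinarith

lemma star_mul_expand (X b : H →L[ℂ] H) (ε : ℂ) (hε : (starRingEnd ℂ) ε * ε = 1) (x : H) :
    (star (X + ε • b) * (X + ε • b)) x = (star X * X + star b * b) x + ε • (star X * b) x
      + (starRingEnd ℂ) ε • (star b * X) x := by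
  have : star (X + ε • b) * (X + ε • b) = (star X * X + star b * b) + ε • (star X * b)
      + (starRingEnd ℂ) ε • (star b * X) := by
    rw [star_add, star_smul, add_mul, mul_add, mul_add, mul_smul_comm, smul_mul_assoc,
      smul_mul_assoc, mul_smul_comm, smul_smul, Complex.star_def, hε, one_smul]
    abel
  rw [this]; rfl

lemma exists_phase (T X b : H →L[ℂ] H) (x : H) (μ : ℝ) :
    ∃ ε : ℂ, ‖T (X x)‖ ^ 2 + ‖T (b x)‖ ^ 2 - μ * (‖(star X * X + star b * b) x‖ ^ 2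
      + ‖(star X * b) x‖ ^ 2 + ‖(star b * X) x‖ ^ 2) ≤
      ‖T ((X + ε • b) x)‖ ^ 2 - μ * ‖(star (X + ε • b) * (X + ε • b)) x‖ ^ 2 := by
  by_contra! hcon
  have h1 := hcon 1
  have h2 := hcon (-1)
  have h3 := hcon Complex.I
  have h4 := hcon (-Complex.I)
  rw [star_mul_expand _ _ _ (by simp)] at h1 h2 h3 h4
  have hq := four_phase ((star X * X + star b * b) x) ((star X * b) x) ((star b * X) x)
  have hp := four_phase (T (X x)) (T (b x)) 0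
  have e : ∀ ε : ℂ, T ((X + ε • b) x) = T (X x) + ε • T (b x) + (starRingEnd ℂ) ε • (0 : H) := by
    intro ε; simp
  rw [e] at h1 h2 h3 h4
  rw [norm_zero] at hp
  have hq' := congrArg (fun z => μ * z) hq
  simp only [mul_add] at hq' h1 h2 h3 h4
  nlinarith

lemma norm_sq_eq_re_inner (a : H →L[ℂ] H) (x : H) :
    ‖a x‖ ^ 2 = (⟪(star a * a) x, x⟫_ℂ).re := by
  change _ = (⟪star a (a x), x⟫_ℂ).re
  rw [ContinuousLinearMap.star_eq_adjoint, ContinuousLinearMap.adjoint_inner_left,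
    inner_self_eq_norm_sq_to_K]
  norm_cast

lemma inner_star_mul_self (a : H →L[ℂ] H) (x : H) :
    ⟪(star a * a) x, x⟫_ℂ = ((‖a x‖ ^ 2 : ℝ) : ℂ) := by
  change ⟪star a (a x), x⟫_ℂ = _
  rw [ContinuousLinearMap.star_eq_adjoint, ContinuousLinearMap.adjoint_inner_left,
    inner_self_eq_norm_sq_to_K]
  norm_cast

lemma inner_star_mul_self' (a : H →L[ℂ] H) (x : H) :
    ⟪x, (star a * a) x⟫_ℂ = ((‖a x‖ ^ 2 : ℝ) : ℂ) := by
  rw [← inner_conj_symm, inner_star_mul_self, Complex.conj_ofReal]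

omit [CompleteSpace H] in
lemma inner_self_ofReal (x : H) : ⟪x, x⟫_ℂ = ((‖x‖ ^ 2 : ℝ) : ℂ) := by
  rw [inner_self_eq_norm_sq_to_K]; norm_cast

lemma norm_sq_le_norm_star_mul (a : H →L[ℂ] H) {x : H} (hx : ‖x‖ = 1) :
    ‖a x‖ ^ 2 ≤ ‖(star a * a) x‖ := by
  rw [norm_sq_eq_re_inner]
  refine (Complex.re_le_norm _).trans ((norm_inner_le_norm _ _).trans ?_)
  rw [hx, mul_one]

/-- One step of the greedy construction, before the square-root linearisation. -/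
lemma exists_time_phase (S : ModularDatum H) (herg : S.Ergodic) {ω : Ultrafilter ℕ}
    (hω : (ω : Filter ℕ) ≤ atTop) (T : H →L[ℂ] H) {a X : H →L[ℂ] H} (ha : a ∈ S.M)
    (hX : X ∈ S.M) {m : ℝ} (hm : HasMean ω (fun t => ‖T (S.D.wave t (a S.vac))‖ ^ 2) m)
    (μ : ℝ) {θ : ℝ} (hθ : 0 < θ) :
    ∃ (t : ℝ) (ε : ℂ), ‖T (X S.vac)‖ ^ 2 + m - θ - μ * (‖(star X * X) S.vac‖ ^ 2
      + 2 * (‖a S.vac‖ ^ 2 * ‖X S.vac‖ ^ 2) + ‖(star a * a) S.vac‖ ^ 2
      + ‖star X S.vac‖ ^ 2 * ‖a S.vac‖ ^ 2 + ‖star a S.vac‖ ^ 2 * ‖X S.vac‖ ^ 2) ≤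
      ‖T ((X + ε • S.flow t a) S.vac)‖ ^ 2
        - μ * ‖(star (X + ε • S.flow t a) * (X + ε • S.flow t a)) S.vac‖ ^ 2 := by
  set ξ := S.vac with hξ
  have hc := continuous_inner_flow S
  have c0 : Continuous fun t => ‖T (S.D.wave t (a ξ))‖ ^ 2 :=
    ((T.continuous.comp (continuous_wave_apply S.D _)).norm).pow 2
  -- the three ergodic means
  have m1 : HasMean ω (fun t => (⟪S.flow t (star a * a) ξ, (star X * X) ξ⟫_ℂ).re)
      (‖a ξ‖ ^ 2 * ‖X ξ‖ ^ 2) := by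
    have := (hasMean_flow S herg hω (mul_mem (star_mem ha) ha) ξ ((star X * X) ξ)).re (hc _ _ _)
    rwa [inner_star_mul_self, inner_star_mul_self', ← Complex.ofReal_mul, Complex.ofReal_re]
      at this
  have m2 : HasMean ω (fun t => (⟪S.flow (-t) (X * star X) (a ξ), a ξ⟫_ℂ).re)
      (‖star X ξ‖ ^ 2 * ‖a ξ‖ ^ 2) := by
    have := ((hasMean_flow S herg hω (mul_mem hX (star_mem hX)) (a ξ) (a ξ)).re
      (hc _ _ _)).neg_arg
    have e := inner_star_mul_self (star X) ξ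
    rw [star_star] at e
    rwa [e, inner_self_ofReal, ← Complex.ofReal_mul, Complex.ofReal_re] at this
  have m3 : HasMean ω (fun t => (⟪S.flow t (a * star a) (X ξ), X ξ⟫_ℂ).re)
      (‖star a ξ‖ ^ 2 * ‖X ξ‖ ^ 2) := by
    have := ((hasMean_flow S herg hω (mul_mem ha (star_mem ha)) (X ξ) (X ξ)).re
      (hc _ _ _))
    have e := inner_star_mul_self (star a) ξ
    rw [star_star] at e
    rwa [e, inner_self_ofReal, ← Complex.ofReal_mul, Complex.ofReal_re] at this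
  have c1 : Continuous fun t => (⟪S.flow t (star a * a) ξ, (star X * X) ξ⟫_ℂ).re :=
    Complex.continuous_re.comp (hc _ _ _)
  have c2 : Continuous fun t => (⟪S.flow (-t) (X * star X) (a ξ), a ξ⟫_ℂ).re :=
    Complex.continuous_re.comp ((hc _ _ _).comp continuous_neg)
  have c3 : Continuous fun t => (⟪S.flow t (a * star a) (X ξ), X ξ⟫_ℂ).re :=
    Complex.continuous_re.comp (hc _ _ _)
  have mtot := hm.add c0 (by fun_prop)
    ((((m1.const_mul c1 2).add (by fun_prop) c2 m2).add (by fun_prop) c3 m3).const_mul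
      (by fun_prop) (-μ))
  obtain ⟨t, ht⟩ := mtot.exists_gt hω (by fun_prop) (sub_lt_self _ hθ)
  obtain ⟨ε, hε⟩ := exists_phase T X (S.flow t a) ξ μ
  refine ⟨t, ε, le_trans ?_ hε⟩
  have e0 : S.flow t a ξ = S.D.wave t (a ξ) := flow_vac S t a
  have e1 : ‖(star X * X + star (S.flow t a) * S.flow t a) ξ‖ ^ 2 = ‖(star X * X) ξ‖ ^ 2
      + 2 * (⟪S.flow t (star a * a) ξ, (star X * X) ξ⟫_ℂ).re + ‖(star a * a) ξ‖ ^ 2 := by
    rw [star_flow, ← flow_mul]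
    change ‖(star X * X) ξ + S.flow t (star a * a) ξ‖ ^ 2 = _
    rw [add_comm, @norm_add_sq ℂ, flow_vac, norm_wave_apply]
    simp only [RCLike.re_to_complex]
    ring
  have e2 : ‖(star X * S.flow t a) ξ‖ ^ 2 = (⟪S.flow (-t) (X * star X) (a ξ), a ξ⟫_ℂ).re := by
    change ‖star X (S.flow t a ξ)‖ ^ 2 = _
    rw [norm_sq_eq_re_inner, star_star, e0, flow_apply, neg_neg, inner_wave_left, neg_neg]
  have e3 : ‖(star (S.flow t a) * X) ξ‖ ^ 2 = (⟪S.flow t (a * star a) (X ξ), X ξ⟫_ℂ).re := by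
    change ‖star (S.flow t a) (X ξ)‖ ^ 2 = _
    rw [norm_sq_eq_re_inner, star_star, star_flow, ← flow_mul]
  rw [e0, e1, e2, e3]
  nlinarith

/-- The greedy construction. -/
lemma exists_good_element (S : ModularDatum H) (herg : S.Ergodic) {ω : Ultrafilter ℕ}
    (hω : (ω : Filter ℕ) ≤ atTop) (T : H →L[ℂ] H) {K : Set ℝ} {Λ : ℝ}
    (hΛ : ∀ X ∈ S.M, S.D.SupportedIn K (X S.vac) → ‖star X S.vac‖ ≤ Λ * ‖X S.vac‖)
    {a : H →L[ℂ] H} (ha : a ∈ S.M) (haK : S.D.SupportedIn K (a S.vac)) (ha2 : ‖a S.vac‖ ≤ 2)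
    {c m : ℝ} (hc : 0 < c) (hcm : c ≤ m)
    (hm : HasMean ω (fun t => ‖T (S.D.wave t (a S.vac))‖ ^ 2) m) :
    ∃ X ∈ S.M, S.D.SupportedIn K (X S.vac) ∧ ‖(star X * X) S.vac‖ ≤ 1 ∧
      c / (2 * (9 + 8 * Λ ^ 2)) ≤ ‖T (X S.vac)‖ ^ 2 := by
  set ξ := S.vac with hξ
  set κ := c / (2 * (9 + 8 * Λ ^ 2)) with hκ
  have hκ0 : 0 < κ := by positivity
  set A := ‖(star a * a) ξ‖ ^ 2 with hA
  set L := A + 1 with hL
  have hA0 : 0 ≤ A := by positivity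
  let s : (H →L[ℂ] H) → ℝ := fun X => Real.sqrt (‖(star X * X) ξ‖ ^ 2 + L ^ 2)
  have step : ∀ X ∈ S.M, S.D.SupportedIn K (X ξ) → ∃ X' ∈ S.M, S.D.SupportedIn K (X' ξ) ∧
      ‖T (X ξ)‖ ^ 2 - κ * s X + c / 2 ≤ ‖T (X' ξ)‖ ^ 2 - κ * s X' := by
    intro X hX hXK
    set σ := s X with hσ
    have hσL : L ≤ σ := Real.le_sqrt_of_sq_le (by nlinarith [sq_nonneg ‖(star X * X) ξ‖])
    have hσn : ‖(star X * X) ξ‖ ≤ σ := Real.le_sqrt_of_sq_le (by nlinarith [sq_nonneg L])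
    have hσ0 : 0 < σ := by linarith
    have hσ2 : σ ^ 2 = ‖(star X * X) ξ‖ ^ 2 + L ^ 2 := Real.sq_sqrt (by positivity)
    obtain ⟨t, ε, h⟩ := exists_time_phase S herg hω T ha hX hm (κ / (2 * σ))
      (θ := c / 4) (by positivity)
    refine ⟨X + ε • S.flow t a, add_mem hX (smul_mem_M S.M ε (flow_mem S t ha)), ?_, ?_⟩
    · change S.D.SupportedIn K (X ξ + ε • S.flow t a ξ)
      refine supp_add S.D hXK (supp_smul S.D ε ?_)
      rw [hξ, flow_vac]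
      exact supp_app S.D _ haK
    · set X' := X + ε • S.flow t a with hX'
      have h1 : s X' ≤ (‖(star X' * X') ξ‖ ^ 2 + L ^ 2 + σ ^ 2) / (2 * σ) := by
        rw [le_div_iff₀ (by positivity)]
        have : s X' ^ 2 = ‖(star X' * X') ξ‖ ^ 2 + L ^ 2 := Real.sq_sqrt (by positivity)
        nlinarith [sq_nonneg (s X' - σ)]
      have hr : ‖X ξ‖ ^ 2 ≤ σ := (norm_sq_le_norm_star_mul X S.norm_vac).trans hσn
      have hα : ‖a ξ‖ ^ 2 ≤ 4 := by nlinarith [norm_nonneg (a ξ)]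
      have hr' : ‖star X ξ‖ ^ 2 ≤ Λ ^ 2 * σ := by
        calc ‖star X ξ‖ ^ 2 ≤ (Λ * ‖X ξ‖) ^ 2 := by gcongr; exact hΛ X hX hXK
          _ = Λ ^ 2 * ‖X ξ‖ ^ 2 := by ring
          _ ≤ Λ ^ 2 * σ := by gcongr
      have hβ : ‖star a ξ‖ ^ 2 ≤ Λ ^ 2 * 4 := by
        calc ‖star a ξ‖ ^ 2 ≤ (Λ * ‖a ξ‖) ^ 2 := by gcongr; exact hΛ a ha haK
          _ = Λ ^ 2 * ‖a ξ‖ ^ 2 := by ring
          _ ≤ Λ ^ 2 * 4 := by gcongr
      have b1 : ‖a ξ‖ ^ 2 * ‖X ξ‖ ^ 2 ≤ 4 * σ := by gcongr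
      have b2 : ‖star X ξ‖ ^ 2 * ‖a ξ‖ ^ 2 ≤ (Λ ^ 2 * σ) * 4 := by gcongr
      have b3 : ‖star a ξ‖ ^ 2 * ‖X ξ‖ ^ 2 ≤ (Λ ^ 2 * 4) * σ := by gcongr
      have b4 : ‖(star X * X) ξ‖ ^ 2 + 2 * (‖a ξ‖ ^ 2 * ‖X ξ‖ ^ 2) + A
          + ‖star X ξ‖ ^ 2 * ‖a ξ‖ ^ 2 + ‖star a ξ‖ ^ 2 * ‖X ξ‖ ^ 2 + (L ^ 2 + σ ^ 2)
          ≤ 2 * σ ^ 2 + (9 + 8 * Λ ^ 2) * σ := by nlinarith
      have b5 : κ / (2 * σ) * (2 * σ ^ 2 + (9 + 8 * Λ ^ 2) * σ) = κ * σ + c / 4 := by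
        rw [hκ]; field_simp; ring
      have b6 := mul_le_mul_of_nonneg_left b4 (show 0 ≤ κ / (2 * σ) by positivity)
      have b7 : κ * s X' ≤ κ / (2 * σ) * (‖(star X' * X') ξ‖ ^ 2 + L ^ 2 + σ ^ 2) := by
        calc κ * s X' ≤ κ * ((‖(star X' * X') ξ‖ ^ 2 + L ^ 2 + σ ^ 2) / (2 * σ)) := by gcongr
          _ = _ := by ring
      rw [b5] at b6
      simp only [mul_add] at b6 b7 h
      linarith
  have iter : ∀ n : ℕ, ∃ X ∈ S.M, S.D.SupportedIn K (X ξ) ∧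
      -(κ * s 0) + n * (c / 2) ≤ ‖T (X ξ)‖ ^ 2 - κ * s X := by
    intro n
    induction n with
    | zero => exact ⟨0, zero_mem _, supp_zero S.D K, by simp⟩
    | succ n ih =>
      obtain ⟨X, hX, hXK, h⟩ := ih
      obtain ⟨X', hX', hXK', h'⟩ := step X hX hXK
      exact ⟨X', hX', hXK', by push_cast; linarith⟩
  obtain ⟨n, hn⟩ := exists_nat_gt (κ * s 0 / (c / 2))
  rw [div_lt_iff₀ (by positivity)] at hn
  obtain ⟨X, hX, hXK, h⟩ := iter n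
  set ν := ‖(star X * X) ξ‖ with hν
  have hνs : ν ≤ s X := Real.le_sqrt_of_sq_le (by nlinarith [sq_nonneg L])
  have hp : κ * ν < ‖T (X ξ)‖ ^ 2 := by nlinarith
  have hν0 : 0 < ν := by
    refine lt_of_le_of_ne (norm_nonneg _) fun h0 => ?_
    have h1 := norm_sq_le_norm_star_mul X S.norm_vac
    rw [← hξ, ← hν, ← h0] at h1
    have h2 : X ξ = 0 := by
      rw [← norm_eq_zero]; nlinarith [norm_nonneg (X ξ)]
    rw [h2, map_zero, norm_zero, ← h0] at hp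
    simp at hp
  set r : ℝ := (Real.sqrt ν)⁻¹ with hr
  have hr2 : r ^ 2 = ν⁻¹ := by rw [hr, inv_pow, Real.sq_sqrt hν0.le]
  have hr0 : 0 ≤ r := by positivity
  refine ⟨(r : ℂ) • X, smul_mem_M S.M _ hX, supp_smul S.D _ hXK, ?_, ?_⟩
  · rw [star_smul, smul_mul_smul_comm, Complex.star_def, Complex.conj_ofReal]
    change ‖((r : ℂ) * r) • (star X * X) ξ‖ ≤ 1
    rw [norm_smul, norm_mul, Complex.norm_real, Real.norm_eq_abs, abs_of_nonneg hr0, ← hν, ← sq,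
      hr2, inv_mul_cancel₀ hν0.ne']
  · change κ ≤ ‖T ((r : ℂ) • X ξ)‖ ^ 2
    rw [map_smul, norm_smul, Complex.norm_real, Real.norm_eq_abs, abs_of_nonneg hr0, mul_pow, hr2,
      le_inv_mul_iff₀ hν0]
    linarith

end Crest.Agent.R84
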